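import Mathlib
import Vale.Agent.P252.R.Spec

open scoped ContDiff Topology
open Filter

namespace Vale.Agent.P252.H866

open Vale.Agent.P252.R

/-- A closed convex set that contains the ray `ℝ≥0 • o` is stable under adding `o`. -/
theorem add_ray {V : Type*} [AddCommGroup V] [Module ℝ V] [TopologicalSpace V]
    [IsTopologicalAddGroup V] [ContinuousSMul ℝ V] {K : Set V} (hK : IsClosed K)
    (hc : Convex ℝ K) {p o : V} (hp : p ∈ K) (ho : ∀ t : ℝ, 0 ≤ t → t • o ∈ K) : p + o ∈ K := by
  have h1 : Tendsto (fun m : ℕ => (1 - 1 / ((m : ℝ) + 1)) • p + o) atTop (𝓝 (p + o)) := by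
    have h2 : Tendsto (fun m : ℕ => (1 - 1 / ((m : ℝ) + 1))) atTop (𝓝 (1 - 0)) :=
      tendsto_const_nhds.sub tendsto_one_div_add_atTop_nhds_zero_nat
    rw [sub_zero] at h2
    simpa using (h2.smul_const p).add_const o
  refine hK.mem_of_tendsto h1 (Eventually.of_forall fun m => ?_)
  have hm : (0 : ℝ) < (m : ℝ) + 1 := by positivity
  have h3 := hc hp (ho ((m : ℝ) + 1) hm.le)
    (a := 1 - 1 / ((m : ℝ) + 1)) (b := 1 / ((m : ℝ) + 1))
    (by rw [sub_nonneg, div_le_one hm]; linarith [(Nat.cast_nonneg m : (0 : ℝ) ≤ m)])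
    (by positivity) (by ring)
  have h4 : (1 / ((m : ℝ) + 1)) • (((m : ℝ) + 1) • o) = o := by
    rw [smul_smul, one_div, inv_mul_cancel₀ hm.ne', one_smul]
  rwa [h4] at h3

variable {n k : ℕ} {K : Set (En n × ℝ)}

theorem ones_apply (n k : ℕ) (i : Fin n) : ones n k i = if i.val < k then 1 else 0 := rfl

/-- Membership in the arm orthant. -/
theorem wedge_add_orth (W : Wedge n k K) {p o : En n × ℝ} (hp : p ∈ K) (h2 : 0 ≤ o.2)
    (h1 : ∀ i : Fin n, i.val < k → 0 ≤ o.1 i) (h0 : ∀ i : Fin n, k ≤ i.val → o.1 i = 0) :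
    p + o ∈ K := by
  refine add_ray W.closed W.cvx hp fun t ht => W.orth _ ?_ ?_ ?_
  · exact mul_nonneg ht h2
  · intro i hi
    exact mul_nonneg ht (h1 i hi)
  · intro i hi
    simp [h0 i hi]

theorem wedge_zero_mem (W : Wedge n k K) : (0 : En n × ℝ) ∈ K :=
  W.orth 0 le_rfl (fun _ _ => le_rfl) fun _ _ => rfl

theorem wedge_smul_mem (W : Wedge n k K) {p : En n × ℝ} (hp : p ∈ K) {s : ℝ} (h0 : 0 ≤ s)
    (h1 : s ≤ 1) : s • p ∈ K := by
  have := W.cvx (wedge_zero_mem W) hp (a := 1 - s) (b := s) (by linarith) h0 (by ring)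
  simpa using this

/-- The slice at `(1,…,1)` contains the simplex. -/
theorem wedge_simplex_mem (W : Wedge n k K) (y : En n) (hy0 : ∀ i : Fin n, i.val < k → y i = 0)
    (hy : ∀ i, 0 ≤ y i) (hs : ∑ i, y i ≤ 1) : (ones n k + y, (1 : ℝ)) ∈ K := by
  have hone : (ones n k, (1 : ℝ)) ∈ K := by
    refine W.orth _ zero_le_one ?_ ?_
    · intro i hi
      simp [ones_apply, hi]
    · intro i hi
      simp [ones_apply, hi]
  let w : Option (Fin n) → ℝ := fun o => o.elim (1 - ∑ i, y i) fun j => y j
  let z : Option (Fin n) → En n × ℝ := fun o => o.elim (ones n k, 1) fun j =>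
    if k ≤ j.val then (ones n k + EuclideanSpace.single j 1, 1) else (ones n k, 1)
  have key : ∑ o, w o • z o ∈ K := by
    refine W.cvx.sum_mem ?_ ?_ ?_
    · rintro (_ | j) _
      · simp only [w, Option.elim]; linarith
      · exact hy j
    · rw [Fintype.sum_option]
      simp [w]
    · rintro (_ | j) _
      · exact hone
      · simp only [z, Option.elim]
        split_ifs with h
        · exact W.simplex j h
        · exact hone
  have e : ∑ o, w o • z o = (ones n k + y, (1 : ℝ)) := by
    rw [Fintype.sum_option]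
    have e1 : ∀ j : Fin n, w (some j) • z (some j) =
        y j • (ones n k, (1 : ℝ)) + (EuclideanSpace.single j (y j), (0 : ℝ)) := by
      intro j
      simp only [w, z, Option.elim]
      split_ifs with h
      · refine Prod.ext ?_ ?_
        · ext i
          simp
        · simp
      · have : y j = 0 := hy0 j (not_le.mp h)
        refine Prod.ext ?_ ?_
        · ext i
          simp [this]
        · simp [this]
    rw [Finset.sum_congr rfl fun j _ => e1 j, Finset.sum_add_distrib, ← Finset.sum_smul]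
    have e2 : ∑ j : Fin n, ((EuclideanSpace.single j (y j), (0 : ℝ)) : En n × ℝ) = (y, 0) := by
      refine Prod.ext ?_ ?_
      · rw [Prod.fst_sum]
        ext i
        simp
      · rw [Prod.snd_sum]
        simp
    rw [e2]
    simp only [w, z, Option.elim]
    rw [← add_assoc, ← add_smul]
    refine Prod.ext ?_ ?_
    · ext i
      simp
    · simp
  rwa [e] at key

/-- A convenient family of points of a wedge. -/
theorem wedge_fill (W : Wedge n k K) (p : En n × ℝ) (μ : ℝ) (h0 : 0 ≤ μ) (h1 : μ ≤ 1)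
    (h2 : μ ≤ p.2) (h3 : ∀ i : Fin n, i.val < k → μ ≤ p.1 i)
    (h4 : ∀ i : Fin n, k ≤ i.val → 0 ≤ p.1 i)
    (h5 : ∑ i : Fin n, (if k ≤ i.val then p.1 i else 0) ≤ μ) : p ∈ K := by
  let y : En n := WithLp.toLp 2 fun i => if k ≤ i.val then p.1 i else 0
  have hy : ∀ i, y i = if k ≤ i.val then p.1 i else 0 := fun i => rfl
  rcases h0.eq_or_lt with h | hμ
  · subst h
    have h6 : ∀ i ∈ Finset.univ, (if k ≤ (i : Fin n).val then p.1 i else 0) = 0 := by
      refine (Finset.sum_eq_zero_iff_of_nonneg fun i _ => ?_).mp (le_antisymm h5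
        (Finset.sum_nonneg fun i _ => ?_))
      · split_ifs with h
        · exact h4 i h
        · exact le_rfl
      · split_ifs with h
        · exact h4 i h
        · exact le_rfl
    refine W.orth p h2 h3 fun i hi => ?_
    simpa [hi] using h6 i (Finset.mem_univ i)
  · have h6 : (ones n k + μ⁻¹ • y, (1 : ℝ)) ∈ K := by
      refine wedge_simplex_mem W _ ?_ ?_ ?_
      · intro i hi
        simp [hy, not_le.mpr hi]
      · intro i
        have : 0 ≤ y i := by
          rw [hy]
          split_ifs with h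
          · exact h4 i h
          · exact le_rfl
        simpa using mul_nonneg (inv_nonneg.mpr h0) this
      · have : ∑ i, (μ⁻¹ • y) i = μ⁻¹ * ∑ i : Fin n, (if k ≤ i.val then p.1 i else 0) := by
          rw [Finset.mul_sum]
          exact Finset.sum_congr rfl fun i _ => by simp [hy]
        rw [this, inv_mul_le_iff₀ hμ, mul_one]
        exact h5
    have h7 := wedge_smul_mem W h6 h0 h1
    have h8 := wedge_add_orth W h7 (o := p - μ • (ones n k + μ⁻¹ • y, (1 : ℝ))) (by simpa using h2)
      (fun i hi => by simpa [ones_apply, hi, hy, not_le.mpr hi] using h3 i hi)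
      (fun i hi => by
        have : ¬ i.val < k := not_lt.mpr hi
        simp [ones_apply, hy, hi, this, hμ.ne'])
    simpa using h8

end Vale.Agent.P252.H866
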