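import Mathlib
import Vale.Agent.P252.R.Spec
import Vale.Agent.P252.H866.Basics

open scoped ContDiff Topology
open Filter

namespace Vale.Agent.P252.H866

open Vale.Agent.P252.R

variable {n k : ℕ}

theorem ones_mem {K : Set (En n × ℝ)} (W : Wedge n k K) : (ones n k, (1 : ℝ)) ∈ K := by
  have := wedge_simplex_mem W 0 (fun _ _ => rfl) (fun _ => le_rfl) (by simp)
  simpa using this

theorem norm_sub_le_aux {V : Type*} [SeminormedAddCommGroup V] (p q : V) : dist p q = ‖p - q‖ :=
  dist_eq_norm p q

/-- If the inner ball property fails, some wedge has `(ones, 1)` on its boundary. -/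
theorem exists_not_interior (hW1 : Stmt_ulimWedge n k) (hU1 : Stmt_ulimClose n)
    (hball : Stmt_ballMem n) (h : ¬ P1 n k) :
    ∃ K, Wedge n k K ∧ (ones n k, (1 : ℝ)) ∉ interior K := by
  have h1 : ∀ j : ℕ, ∃ K, Wedge n k K ∧ ∃ y : En n, (∀ i : Fin n, i.val < k → y i = 0) ∧
      ‖y‖ ≤ 1 / ((j : ℝ) + 1) ∧ (ones n k + y, (1 : ℝ)) ∉ K := by
    intro j
    by_contra hcon
    refine h ⟨1 / ((j : ℝ) + 1), by positivity, fun K W y hy hy2 => ?_⟩
    by_contra hcon2
    exact hcon ⟨K, W, y, hy, hy2, hcon2⟩
  choose K W y hy hy2 hnot using h1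
  refine ⟨ulim K, hW1 K W, fun hint => ?_⟩
  obtain ⟨r, hr, hrK⟩ := Metric.isOpen_iff.mp isOpen_interior _ hint
  set P : En n × ℝ := (ones n k, (1 : ℝ)) with hP
  have hcb : Metric.closedBall P (r / 2) ⊆ ulim K := fun q hq =>
    interior_subset (hrK (Metric.mem_ball.mpr (lt_of_le_of_lt (Metric.mem_closedBall.mp hq)
      (by linarith))))
  have hc := hU1 K (‖P‖ + r / 2) (r / 4) (by positivity)
  have hs : ∀ᶠ j : ℕ in (hyperfilter ℕ : Filter ℕ), 1 / ((j : ℝ) + 1) < r / 4 := by
    have : ∀ᶠ j : ℕ in atTop, 1 / ((j : ℝ) + 1) < r / 4 :=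
      tendsto_one_div_add_atTop_nhds_zero_nat.eventually_lt_const (by positivity)
    exact this.filter_mono Nat.hyperfilter_le_atTop
  obtain ⟨j, hj1, hj2⟩ := (hc.and hs).exists
  have hb := hball (ulim K) (K j) (‖P‖ + r / 2) (r / 4) (r / 2) P (W j).closed (W j).cvx hj1
    le_rfl (by positivity) (by linarith) hcb
  refine hnot j (hb (Metric.mem_closedBall.mpr ?_))
  have e : (ones n k + y j, (1 : ℝ)) - P = (y j, 0) := by
    simp [hP]
  rw [dist_eq_norm, e, Prod.norm_mk]
  simp only [norm_zero]
  rw [max_eq_left (norm_nonneg _)]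
  linarith [hy2 j]

/-- The interior of a wedge is not empty. -/
theorem interior_nonempty {K : Set (En n × ℝ)} (W : Wedge n k K) : (interior K).Nonempty := by
  set c : ℝ := 1 / (2 * ((n : ℝ) + 1)) with hc
  have hc0 : 0 < c := by positivity
  let U : Set (En n × ℝ) := {p | 1 < p.2 ∧ (∀ i : Fin n, if i.val < k then 1 < p.1 i else
    0 < p.1 i ∧ p.1 i < 2 * c)}
  have hU : IsOpen U := by
    have hU' : U = {p | 1 < p.2} ∩ ⋂ i : Fin n, {p : En n × ℝ | if i.val < k then 1 < p.1 i else
        0 < p.1 i ∧ p.1 i < 2 * c} := by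
      ext p
      simp [U]
    rw [hU']
    refine (isOpen_lt continuous_const continuous_snd).inter ?_
    refine isOpen_iInter_of_finite fun i => ?_
    have hci : Continuous fun p : En n × ℝ => p.1 i := by fun_prop
    split_ifs with h
    · exact isOpen_lt continuous_const hci
    · exact (isOpen_lt continuous_const hci).inter (isOpen_lt hci continuous_const)
  have hUK : U ⊆ K := by
    intro p hp
    refine wedge_fill W p 1 zero_le_one le_rfl hp.1.le ?_ ?_ ?_
    · intro i hi
      have := hp.2 i
      rw [if_pos hi] at this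
      exact this.le
    · intro i hi
      have := hp.2 i
      rw [if_neg (not_lt.mpr hi)] at this
      exact this.1.le
    · have : ∀ i ∈ (Finset.univ : Finset (Fin n)), (if k ≤ i.val then p.1 i else 0) ≤ 2 * c := by
        intro i _
        split_ifs with h
        · have := hp.2 i
          rw [if_neg (not_lt.mpr h)] at this
          exact this.2.le
        · positivity
      refine (Finset.sum_le_card_nsmul _ _ _ this).trans ?_
      rw [Finset.card_univ, Fintype.card_fin, nsmul_eq_mul, hc]
      rw [show (n : ℝ) * (2 * (1 / (2 * ((n : ℝ) + 1)))) = n / ((n : ℝ) + 1) by field_simp]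
      rw [div_le_one (by positivity)]
      linarith
  refine ⟨((WithLp.toLp 2 fun i => if i.val < k then 2 else c : En n), (2 : ℝ)),
    interior_maximal hUK hU ⟨one_lt_two, fun i => ?_⟩⟩
  split_ifs with h
  · simp [h]
  · simp only [h, if_false]
    constructor <;> linarith

/-- The supporting covector at `(ones, 1)`. -/
theorem exists_covector {K : Set (En n × ℝ)} (W : Wedge n k K)
    (hK : (ones n k, (1 : ℝ)) ∉ interior K) :
    ∃ w : Fin n → ℝ, (∀ i : Fin n, i.val < k → w i = 0) ∧ (∀ i, 0 ≤ w i) ∧ (∃ m, 0 < w m) ∧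
      ∀ p ∈ K, 0 ≤ ∑ i, w i * p.1 i := by
  obtain ⟨f, hf⟩ := geometric_hahn_banach_open_point W.cvx.interior isOpen_interior hK
  have hfK : ∀ p ∈ K, f p ≤ f (ones n k, (1 : ℝ)) := by
    intro p hp
    have h1 : p ∈ closure (interior K) := by
      rw [W.cvx.closure_interior_eq_closure_of_nonempty_interior (interior_nonempty W)]
      exact subset_closure hp
    have h2 : IsClosed {q : En n × ℝ | f q ≤ f (ones n k, (1 : ℝ))} :=
      isClosed_le f.continuous continuous_const
    exact closure_minimal (fun q hq => (hf q hq).le) h2 h1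
  set P : En n × ℝ := (ones n k, (1 : ℝ)) with hP
  have harm : ∀ o : En n × ℝ, P + o ∈ K → P - o ∈ K → f o = 0 := by
    intro o h1 h2
    have h3 := hfK _ h1
    have h4 := hfK _ h2
    rw [map_add] at h3
    rw [map_sub] at h4
    linarith
  have hz : f ((0 : En n), (1 : ℝ)) = 0 := by
    refine harm _ (wedge_add_orth W (ones_mem W) zero_le_one (fun _ _ => le_rfl)
      fun _ _ => rfl) ?_
    refine W.orth _ (by simp [hP]) (fun i hi => by simp [hP, ones_apply, hi]) fun i hi => ?_
    simp [hP, ones_apply, not_lt.mpr hi]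
  have hi0 : ∀ i : Fin n, i.val < k → f (EuclideanSpace.single i (1 : ℝ), (0 : ℝ)) = 0 := by
    intro i hi
    refine harm _ (wedge_add_orth W (ones_mem W) le_rfl (fun j _ => ?_) fun j hj => ?_) ?_
    · rw [PiLp.single_apply]
      split_ifs <;> norm_num
    · have : j ≠ i := by
        rintro rfl
        omega
      simp [this]
    · refine W.orth _ (by simp [hP]) (fun j hj => ?_) fun j hj => ?_
      · by_cases hji : j = i
        · subst hji
          simp [hP, ones_apply, hj]
        · simp [hP, ones_apply, hj, hji]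
      · have : j ≠ i := by
          rintro rfl
          omega
        simp [hP, ones_apply, not_lt.mpr hj, this]
  have hfp : ∀ p : En n × ℝ, f p = ∑ i, f (EuclideanSpace.single i (1 : ℝ), (0 : ℝ)) * p.1 i := by
    intro p
    have e : p = ∑ i, p.1 i • ((EuclideanSpace.single i (1 : ℝ), (0 : ℝ)) : En n × ℝ) +
        p.2 • ((0 : En n), (1 : ℝ)) := by
      refine Prod.ext ?_ ?_
      · rw [Prod.fst_add, Prod.fst_sum]
        ext i
        simp [Pi.single_apply]
      · rw [Prod.snd_add, Prod.snd_sum]
        simp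
    conv_lhs => rw [e]
    rw [map_add, map_smul, hz, map_sum, smul_zero, add_zero]
    exact Finset.sum_congr rfl fun i _ => by rw [map_smul, smul_eq_mul, mul_comm]
  have hfP : f P = 0 := by
    rw [hfp]
    refine Finset.sum_eq_zero fun i _ => ?_
    by_cases hi : i.val < k
    · rw [hi0 i hi, zero_mul]
    · simp [hP, ones_apply, hi]
  have hw0 : ∀ j : Fin n, 0 ≤ -f (EuclideanSpace.single j (1 : ℝ), (0 : ℝ)) := by
    intro j
    by_cases hj : j.val < k
    · rw [hi0 j hj, neg_zero]
    · have h1 := hfK _ (W.simplex j (not_lt.mp hj))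
      have h2 : (ones n k + EuclideanSpace.single j 1, (1 : ℝ)) =
          P + (EuclideanSpace.single j (1 : ℝ), (0 : ℝ)) := by
        simp [hP]
      rw [h2, map_add] at h1
      linarith
  refine ⟨fun i => -f (EuclideanSpace.single i (1 : ℝ), (0 : ℝ)), fun i hi => ?_, hw0, ?_, ?_⟩
  · simp only
    rw [hi0 i hi, neg_zero]
  · by_contra hcon
    push Not at hcon
    obtain ⟨a, ha⟩ := interior_nonempty W
    have h1 := hf a ha
    rw [hfP, hfp] at h1
    have h2 : ∑ i, f (EuclideanSpace.single i (1 : ℝ), (0 : ℝ)) * a.1 i = 0 := by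
      refine Finset.sum_eq_zero fun i _ => ?_
      have h3 := hcon i
      have h4 := hw0 i
      have h5 : f (EuclideanSpace.single i (1 : ℝ), (0 : ℝ)) = 0 := by linarith
      rw [h5, zero_mul]
    linarith
  · intro p hp
    have h1 := hfK p hp
    rw [hfP, hfp] at h1
    have : ∑ i, -f (EuclideanSpace.single i (1 : ℝ), (0 : ℝ)) * p.1 i =
        -∑ i, f (EuclideanSpace.single i (1 : ℝ), (0 : ℝ)) * p.1 i := by
      rw [← Finset.sum_neg_distrib]
      exact Finset.sum_congr rfl fun i _ => by ring
    rw [this]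
    linarith

/-- The linear change of variables: identity on the first `k` coordinates, `e_k` goes to
`s • v`, the other coordinate vectors go to the kernel of `w`. -/
theorem exists_equiv (hk : k < n) (w v : Fin n → ℝ) (hw : ∀ i : Fin n, i.val < k → w i = 0)
    (hwv : ∑ i, w i * v i = 1) (m : Fin n)
    (hm : w m ≠ 0) (s : ℝ) (hs : s ≠ 0) :
    ∃ T : En n ≃L[ℝ] En n, (∀ x, ∀ i : Fin n, i.val < k → T x i = x i) ∧
      (∀ x, ∑ i, w i * T x i = s * x ⟨k, hk⟩) ∧
      (∀ x : En n, (∀ i : Fin n, k + 1 ≤ i.val → x i = 0) →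
        ∀ i : Fin n, k ≤ i.val → T x i = s * x ⟨k, hk⟩ * v i) := by
  classical
  set κ : Fin n := ⟨k, hk⟩ with hκ
  have hkm : k ≤ m.val := by
    by_contra hcon
    exact hm (hw m (not_le.mp hcon))
  set σ : Equiv.Perm (Fin n) := Equiv.swap κ m with hσ
  have hσσ : ∀ i, σ (σ i) = i := fun i => Equiv.swap_apply_self _ _ _
  have hσk : ∀ i : Fin n, k ≤ i.val → k ≤ (σ i).val := by
    intro i hi
    rcases Equiv.swap_apply_eq_iff.mp (rfl : σ i = σ i) with h
    by_cases h1 : i = κ
    · subst h1
      rw [hσ, Equiv.swap_apply_left]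
      exact hkm
    · by_cases h2 : i = m
      · subst h2
        rw [hσ, Equiv.swap_apply_right]
      · rw [hσ, Equiv.swap_apply_of_ne_of_ne h1 h2]
        exact hi
  have hσκ : ∀ i : Fin n, i ≠ m → σ i ≠ κ := by
    intro i hi h
    apply hi
    rw [← hσσ i, h, hσ, Equiv.swap_apply_left]
  -- the linear map
  let r : (Fin n → ℝ) → Fin n → ℝ := fun x i => if i = m then
    -(w m)⁻¹ * ∑ l, (if k ≤ l.val ∧ l ≠ m then w l * x (σ l) else 0) else x (σ i)
  let F : (Fin n → ℝ) → Fin n → ℝ := fun x i => if i.val < k then x i else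
    s * x κ * v i + r x i
  have hFadd : ∀ x y, F (x + y) = F x + F y := by
    intro x y
    funext i
    simp only [F, Pi.add_apply]
    by_cases hi : i.val < k
    · simp [hi]
    · simp only [hi, if_false]
      have : r (x + y) i = r x i + r y i := by
        simp only [r]
        by_cases him : i = m
        · simp only [him, if_true, Pi.add_apply]
          rw [← mul_add, ← Finset.sum_add_distrib]
          congr 1
          refine Finset.sum_congr rfl fun l _ => ?_
          split_ifs <;> ring
        · simp [him]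
      rw [this]
      ring
  have hFsmul : ∀ (c : ℝ) x, F (c • x) = c • F x := by
    intro c x
    funext i
    simp only [F, Pi.smul_apply, smul_eq_mul]
    by_cases hi : i.val < k
    · simp [hi]
    · simp only [hi, if_false]
      have : r (c • x) i = c * r x i := by
        simp only [r]
        by_cases him : i = m
        · simp only [him, if_true, Pi.smul_apply, smul_eq_mul]
          rw [mul_left_comm]
          congr 1
          rw [Finset.mul_sum]
          refine Finset.sum_congr rfl fun l _ => ?_
          split_ifs <;> ring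
        · simp [him]
      rw [this]
      ring
  let L : En n →ₗ[ℝ] En n :=
    { toFun := fun x => WithLp.toLp 2 (F x)
      map_add' := fun x y => by
        have : F ((x + y : En n) : Fin n → ℝ) = F x + F y := hFadd x y
        rw [this]
        rfl
      map_smul' := fun c x => by
        have : F ((c • x : En n) : Fin n → ℝ) = c • F x := hFsmul c x
        rw [this]
        rfl }
  have hL : ∀ x i, L x i = F x i := fun x i => rfl
  have hwr : ∀ x, ∑ i, w i * F x i = s * x κ := by
    intro x
    have h1 : ∀ i, w i * F x i = s * x κ * (w i * v i) +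
        ((if i = m then w m * r x m else 0) +
          (if k ≤ i.val ∧ i ≠ m then w i * x (σ i) else 0)) := by
      intro i
      simp only [F]
      by_cases hi : i.val < k
      · have him : i ≠ m := by
          rintro rfl
          omega
        have : ¬ k ≤ i.val := not_le.mpr hi
        simp [hi, hw i hi, him, this]
      · have hi' : k ≤ i.val := not_lt.mp hi
        by_cases him : i = m
        · subst him
          simp [hi]
          ring
        · simp [hi, him, hi', r]
          ring
    rw [Finset.sum_congr rfl fun i _ => h1 i, Finset.sum_add_distrib, ← Finset.mul_sum, hwv,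
      Finset.sum_add_distrib, Finset.sum_ite_eq' Finset.univ m]
    simp only [Finset.mem_univ, if_true, r]
    rw [← mul_assoc, mul_neg, mul_inv_cancel₀ hm]
    ring
  have hinj : Function.Injective L := by
    rw [← LinearMap.ker_eq_bot, LinearMap.ker_eq_bot']
    intro x hx
    have hx' : ∀ i, F x i = 0 := fun i => by rw [← hL, hx]; rfl
    have h1 : x κ = 0 := by
      have h2 := hwr x
      rw [Finset.sum_eq_zero fun i _ => by rw [hx' i, mul_zero]] at h2
      rcases mul_eq_zero.mp h2.symm with h3 | h3
      · exact absurd h3 hs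
      · exact h3
    ext j
    change x j = 0
    by_cases hj : j.val < k
    · have := hx' j
      simpa [F, hj] using this
    · by_cases hjκ : j = κ
      · rw [hjκ, h1]
      · have hj' : k ≤ j.val := not_lt.mp hj
        have h3 : σ j ≠ m := by
          intro h
          apply hjκ
          rw [← hσσ j, h, hσ, Equiv.swap_apply_right]
        have h4 := hx' (σ j)
        simp only [F, not_lt.mpr (hσk j hj'), if_false, h1, mul_zero, zero_mul, zero_add, r, h3,
          hσσ] at h4
        exact h4
  refine ⟨(LinearEquiv.ofInjectiveEndo L hinj).toContinuousLinearEquiv, ?_, ?_, ?_⟩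
  · intro x i hi
    change F x i = x i
    simp [F, hi]
  · intro x
    exact hwr x
  · intro x hx i hi
    change F x i = _
    have h0 : ∀ l : Fin n, k ≤ l.val → l ≠ m → x (σ l) = 0 := by
      intro l hl hlm
      refine hx _ ?_
      have h1 := hσk l hl
      have h2 : (σ l).val ≠ k := fun h => hσκ l hlm (Fin.ext h)
      omega
    simp only [F, not_lt.mpr hi, if_false, r]
    by_cases him : i = m
    · rw [if_pos him, Finset.sum_eq_zero, mul_zero, add_zero]
      intro l _
      split_ifs with h
      · rw [h0 l h.1 h.2, mul_zero]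
      · rfl
    · rw [if_neg him, h0 i hi him, add_zero]

/-- **C1.** If the uniform inner ball property fails then there is a wedge with one more arm. -/
theorem P1_of (hadm : Stmt_admPull n) (hW1 : Stmt_ulimWedge n k) (hU1 : Stmt_ulimClose n)
    (hball : Stmt_ballMem n) (hlim : Stmt_limitWedge n (k + 1)) : Stmt_P1 n k := by
  intro hk hnot
  obtain ⟨K, W, hKi⟩ := exists_not_interior hW1 hU1 hball hnot
  obtain ⟨w, hw0, hwn, ⟨m, hm⟩, hwK⟩ := exists_covector W hKi
  have hn : (0 : ℝ) < n := by
    have : 0 < n := by omega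
    exact_mod_cast this
  set S : ℝ := ∑ i, w i with hS
  have hSpos : 0 < S := Finset.sum_pos' (fun i _ => hwn i) ⟨m, Finset.mem_univ _, hm⟩
  set v : Fin n → ℝ := fun i => if k ≤ i.val then 1 / S else 0 with hv
  have hwv : ∑ i, w i * v i = 1 := by
    have : ∀ i ∈ (Finset.univ : Finset (Fin n)), w i * v i = w i * (1 / S) := by
      intro i _
      by_cases hi : k ≤ i.val
      · simp [hv, hi]
      · rw [hw0 i (not_le.mp hi)]
        simp
    rw [Finset.sum_congr rfl this, ← Finset.sum_mul, ← hS]
    field_simp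
  have hs0 : ∀ j : ℕ, 0 < S / (2 * n * ((j : ℝ) + 1)) := fun j => by positivity
  choose T hT1 hT2 hT3 using fun j : ℕ =>
    exists_equiv hk w v hw0 hwv m hm.ne' (S / (2 * n * ((j : ℝ) + 1))) (hs0 j).ne'
  set K' : ℕ → Set (En n × ℝ) := fun j => pull (T j) 0 1 (0 : Fin n → ℝ) 0 K with hK'
  have hmem : ∀ j p, p ∈ K' j ↔ (T j p.1, p.2) ∈ K := by
    intro j p
    simp [hK', pull]
  have hsum_one : ∀ c : ℝ, 0 ≤ c → ∑ i : Fin n, (if k ≤ i.val then c else 0) ≤ n * c := by
    intro c hc
    have : ∀ i ∈ (Finset.univ : Finset (Fin n)), (if k ≤ i.val then c else 0) ≤ c := by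
      intro i _
      split_ifs
      · exact le_rfl
      · exact hc
    refine (Finset.sum_le_card_nsmul _ _ _ this).trans ?_
    rw [Finset.card_univ, Fintype.card_fin, nsmul_eq_mul]
  refine hlim K' ?_ ?_ ?_ ?_ ?_ ?_ ?_
  · intro j
    have hc : Continuous fun p : En n × ℝ => ((T j p.1, p.2) : En n × ℝ) := by fun_prop
    have : K' j = (fun p : En n × ℝ => ((T j p.1, p.2) : En n × ℝ)) ⁻¹' K := by
      ext p
      exact hmem j p
    rw [this]
    exact W.closed.preimage hc
  · intro j p hp q hq a b ha hb hab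
    rw [hmem] at hp hq ⊢
    have := W.cvx hp hq ha hb hab
    convert this using 1
    refine Prod.ext ?_ ?_
    · simp
    · simp
  · exact fun j => hadm K (T j) 0 1 0 0 one_pos W.adm
  · intro p hp2 hp1 hp0
    -- the smallest arm coordinate
    obtain ⟨μ, hμ0, hμ1, hμ2, hμi⟩ : ∃ μ : ℝ, 0 < μ ∧ μ ≤ 1 ∧ μ ≤ p.2 ∧
        ∀ i : Fin n, i.val < k → μ ≤ p.1 i := by
      have h1 : ∃ μ : ℝ, 0 < μ ∧ ∀ i : Fin n, i.val < k → μ ≤ p.1 i := by
        have hne : (Finset.univ : Finset (Fin n)).Nonempty := ⟨⟨k, hk⟩, Finset.mem_univ _⟩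
        obtain ⟨i0, -, hi0⟩ := Finset.exists_min_image (Finset.univ : Finset (Fin n))
          (fun i => if i.val < k then p.1 i else 1) hne
        · refine ⟨if i0.val < k then p.1 i0 else 1, ?_, fun i hi => ?_⟩
          · split_ifs with h
            · exact hp1 i0 (by omega)
            · exact one_pos
          · have := hi0 i (Finset.mem_univ _)
            rwa [if_pos hi] at this
      obtain ⟨μ, h2, h3⟩ := h1
      exact ⟨min μ (min 1 p.2), by positivity, (min_le_right _ _).trans (min_le_left _ _),
        (min_le_right _ _).trans (min_le_right _ _), fun i hi => (min_le_left _ _).trans (h3 i hi)⟩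
    have hk0 : 0 < p.1 ⟨k, hk⟩ := hp1 _ (by simp)
    have hev : ∀ᶠ j : ℕ in atTop, p.1 ⟨k, hk⟩ * (1 / ((j : ℝ) + 1)) < μ := by
      have h1 : Tendsto (fun j : ℕ => p.1 ⟨k, hk⟩ * (1 / ((j : ℝ) + 1))) atTop
          (𝓝 (p.1 ⟨k, hk⟩ * 0)) :=
        tendsto_one_div_add_atTop_nhds_zero_nat.const_mul _
      rw [mul_zero] at h1
      exact h1.eventually_lt_const hμ0
    refine hev.mono fun j hj => ?_
    rw [hmem]
    have hTv : ∀ i : Fin n, k ≤ i.val → T j p.1 i =
        p.1 ⟨k, hk⟩ * (1 / ((j : ℝ) + 1)) * (1 / (2 * n)) := by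
      intro i hi
      rw [hT3 j p.1 hp0 i hi]
      simp only [hv, hi, if_true]
      field_simp
    refine wedge_fill W _ μ hμ0.le hμ1 hμ2 ?_ ?_ ?_
    · intro i hi
      simp only [hT1 j p.1 i hi]
      exact hμi i hi
    · intro i hi
      simp only [hTv i hi]
      positivity
    · have h1 : ∀ i ∈ (Finset.univ : Finset (Fin n)),
          (if k ≤ i.val then T j p.1 i else 0) =
          if k ≤ i.val then p.1 ⟨k, hk⟩ * (1 / ((j : ℝ) + 1)) * (1 / (2 * n)) else 0 := by
        intro i _
        split_ifs with hi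
        · exact hTv i hi
        · rfl
      simp only
      rw [Finset.sum_congr rfl h1]
      refine (hsum_one _ (by positivity)).trans ?_
      have : (n : ℝ) * (p.1 ⟨k, hk⟩ * (1 / ((j : ℝ) + 1)) * (1 / (2 * n))) =
          p.1 ⟨k, hk⟩ * (1 / ((j : ℝ) + 1)) / 2 := by
        field_simp
      rw [this]
      have h2 : 0 ≤ p.1 ⟨k, hk⟩ * (1 / ((j : ℝ) + 1)) := by positivity
      linarith
  · intro M δ hδ
    refine Eventually.of_forall fun j p hp _ _ => ?_
    rw [hmem] at hp
    have h1 := W.nonneg_z _ hp
    refine ⟨by simp only at h1; linarith, fun i hi => ?_⟩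
    have h2 : 0 ≤ p.1 i := by
      by_cases hik : i.val < k
      · have := W.nonneg _ hp i hik
        simpa [hT1 j p.1 i hik] using this
      · have hik' : i = ⟨k, hk⟩ := Fin.ext (by simp; omega)
        have h3 := hwK _ hp
        simp only [hT2] at h3
        rw [hik']
        exact le_of_mul_le_mul_left (by simpa using h3) (hs0 j)
    linarith
  · intro j
    have hb : Bornology.IsBounded {x : En n | ‖x‖ ≤ n} := by
      have : {x : En n | ‖x‖ ≤ n} = Metric.closedBall 0 n := by
        ext x; simp
      rw [this]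
      exact Metric.isBounded_closedBall
    have hb2 := ((T j).symm.lipschitz.isBounded_image hb).prod
      (Bornology.isBounded_singleton (x := (1 : ℝ)))
    refine hb2.subset ?_
    rintro ⟨x, z⟩ ⟨hp, hz, hx⟩
    simp only at hz
    rw [hmem] at hp
    refine ⟨⟨T j x, ?_, by simp⟩, hz⟩
    have h1 : ∀ i, |T j x i| ≤ 1 := by
      intro i
      by_cases hi : i.val < k
      · rw [hT1 j x i hi, hx i (by omega)]
        simp
      · refine W.box _ hp hz.le (fun l hl => ?_) i (not_lt.mp hi)
        simp only [hT1 j x l hl]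
        rw [hx l (by omega)]
    have h2 : ‖T j x‖ ^ 2 ≤ n := by
      rw [EuclideanSpace.norm_sq_eq]
      refine (Finset.sum_le_card_nsmul _ _ 1 fun i _ => ?_).trans ?_
      · rw [Real.norm_eq_abs, sq_abs, sq_le_one_iff_abs_le_one]
        exact h1 i
      · simp
    have hn1 : (1 : ℝ) ≤ n := by
      have : 1 ≤ n := by omega
      exact_mod_cast this
    change ‖T j x‖ ≤ n
    nlinarith [norm_nonneg (T j x)]
  · intro j
    set ε0 : ℝ := 1 / (2 * n * ((j : ℝ) + 1)) with hε0
    have hε0pos : 0 < ε0 := by positivity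
    have hε0n : n * ε0 ≤ 1 / 2 := by
      rw [hε0]
      rw [show (n : ℝ) * (1 / (2 * n * ((j : ℝ) + 1))) = (1 / 2) * (1 / ((j : ℝ) + 1)) by
        field_simp]
      have : 1 / ((j : ℝ) + 1) ≤ 1 := by
        rw [div_le_one (by positivity)]
        linarith [(Nat.cast_nonneg j : (0 : ℝ) ≤ j)]
      linarith
    refine ⟨ε0 / (‖(T j : En n →L[ℝ] En n)‖ + 1), by positivity, fun y hy0 hy => ?_⟩
    rw [hmem]
    have hTy : ‖T j y‖ ≤ ε0 := by
      have h1 := (T j : En n →L[ℝ] En n).le_opNorm y
      have h2 : ‖(T j : En n →L[ℝ] En n)‖ * ‖y‖ ≤ ‖(T j : En n →L[ℝ] En n)‖ *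
          (ε0 / (‖(T j : En n →L[ℝ] En n)‖ + 1)) := by gcongr
      have h3 : ‖(T j : En n →L[ℝ] En n)‖ * (ε0 / (‖(T j : En n →L[ℝ] En n)‖ + 1)) ≤ ε0 := by
        rw [mul_div_assoc', div_le_iff₀ (by positivity)]
        nlinarith [norm_nonneg (T j : En n →L[ℝ] En n)]
      exact (h1.trans h2).trans h3
    have hTyi : ∀ i, |T j y i| ≤ ε0 := by
      intro i
      have := PiLp.norm_apply_le (T j y) i
      rw [Real.norm_eq_abs] at this
      exact this.trans hTy
    have hTone : ∀ i : Fin n, k ≤ i.val → T j (ones n (k + 1)) i = ε0 := by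
      intro i hi
      rw [hT3 j (ones n (k + 1)) (fun l hl => by
        rw [ones_apply, if_neg (by omega)]) i hi]
      rw [ones_apply, if_pos (by simp)]
      simp only [hv, hi, if_true, hε0]
      field_simp
    have hTonei : ∀ i : Fin n, i.val < k → T j (ones n (k + 1) + y) i = 1 := by
      intro i hi
      rw [hT1 j _ i hi]
      simp [ones_apply, hy0 i (by omega), show i.val < k + 1 by omega]
    refine wedge_fill W _ 1 zero_le_one le_rfl le_rfl ?_ ?_ ?_
    · intro i hi
      simp only [hTonei i hi, le_refl]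
    · intro i hi
      simp only [map_add]
      have h1 := hTyi i
      rw [abs_le] at h1
      have h2 := hTone i hi
      simp only [PiLp.add_apply, h2]
      linarith [h1.1]
    · have h1 : ∀ i ∈ (Finset.univ : Finset (Fin n)),
          (if k ≤ i.val then T j (ones n (k + 1) + y) i else 0) ≤ 2 * ε0 := by
        intro i _
        split_ifs with hi
        · simp only [map_add]
          have h1 := hTyi i
          rw [abs_le] at h1
          have h2 := hTone i hi
          simp only [PiLp.add_apply, h2]
          linarith [h1.2]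
        · positivity
      simp only
      refine (Finset.sum_le_card_nsmul _ _ _ h1).trans ?_
      rw [Finset.card_univ, Fintype.card_fin, nsmul_eq_mul]
      linarith

end Vale.Agent.P252.H866
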